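import Vale.Agent.P178.QK.Defs

/-!
The category `QP R` is isomorphic to the category `H847.QP R`.
-/

open CategoryTheory

namespace Vale.Agent.P178.QK

universe u

variable (R : Type u) {S : Type u} [CommRing R] [CommRing S]

/-- from morphisms to graphs -/
def toGraph : H847.QP R ⥤ QP R where
  obj P := ⟨P.n, P.M, isSummand_iff_projective.2 P.proj⟩
  map {P P'} φ := ⟨gra (M := P.M) (M' := P'.M) φ, isQ_gra _ (isSummand_iff_projective.2 P'.proj)⟩
  map_id P := QHom.ext' gra_id
  map_comp φ ψ := QHom.ext' (gra_comp _ _)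

/-- from graphs to morphisms -/
noncomputable def ofGraph : QP R ⥤ H847.QP R where
  obj P := ⟨P.n, P.M, isSummand_iff_projective.1 P.summand⟩
  map {_ P'} g := (exists_gra P'.summand g.isQ).choose
  map_id P := gra_inj ((exists_gra P.summand (𝟙 P : P ⟶ P).isQ).choose_spec.trans gra_id.symm)
  map_comp {P P' P''} g h := gra_inj (by
    refine (exists_gra P''.summand (g ≫ h : P ⟶ P'').isQ).choose_spec.trans ?_
    refine Eq.trans ?_ (gra_comp _ _).symm
    change relComp h.graph g.graph = _
    rw [(exists_gra P''.summand h.isQ).choose_spec, (exists_gra P'.summand g.isQ).choose_spec])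

theorem toGraph_ofGraph : toGraph R ⋙ ofGraph R = 𝟭 (H847.QP R) := by
  refine Functor.hext (fun P => rfl) fun P P' φ => heq_of_eq ?_
  exact gra_inj (exists_gra ((toGraph R).obj P').summand ((toGraph R).map φ).isQ).choose_spec

variable {R}

theorem toGraph_baseChange (f : R →+* S) :
    toGraph R ⋙ baseChange f = H847.QP.baseChange f ⋙ toGraph S := by
  refine Functor.hext (fun P => rfl) fun P P' φ => heq_of_eq ?_
  exact QHom.ext' (gra_bcHom f φ).symm

end Vale.Agent.P178.QK
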