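import Vale.Agent.P178.QK.Old

/-!
# Quillen's category `Q P(R)` and the K-groups `K_n(R) = π_{n+1}(B Q P(R), 0)`

`P(R)` is the category of finitely generated projective `R`-modules; we take the small model whose
objects are the direct summands `M ⊆ R ^ n`. A morphism `M ⟶ M'` of `Q P(R)` is an isomorphism
class of diagrams `M ↞ N ↣ M'` (a surjection, and an injection with projective cokernel). Such a
class is the same as a submodule `N ⊆ M'` which is a direct summand, together with a surjection
`N → M`, and the latter is given here by its graph `Γ ⊆ M' × M`.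
-/

open CategoryTheory Simplicial Opposite

namespace Vale.Agent.P178.QK

universe u v

/-- the objects of `Q P(R)`: direct summands `M` of some `R ^ n` -/
structure QP (R : Type u) [CommRing R] : Type u where
  /-- the rank of the free module -/
  n : ℕ
  /-- the submodule of `R ^ n` -/
  M : Submodule R (Fin n → R)
  summand : IsSummand M

/-- the morphisms `P ⟶ P'` of `Q P(R)`: graphs of surjections `N → M`, where `N ⊆ M' ⊆ R ^ n'` is
a direct summand of `R ^ n'` (so that `M' / N` is projective) -/
structure QHom {R : Type u} [CommRing R] (P P' : QP R) : Type u where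
  /-- the graph of the surjection `N → M` -/
  graph : Submodule R ((Fin P'.n → R) × (Fin P.n → R))
  isQ : IsQ P.M P'.M graph

variable {R S : Type u} [CommRing R] [CommRing S]

namespace QHom

variable {P P' P'' : QP R}

theorem ext' {f g : QHom P P'} (h : f.graph = g.graph) : f = g := by
  cases f; cases g; cases h; rfl

theorem isQ_comp (f : QHom P P') (g : QHom P' P'') : IsQ P.M P''.M (relComp g.graph f.graph) :=
  IsQ.comp P'.summand P''.summand g.isQ f.isQ

/-- the identity -/
def id (P : QP R) : QHom P P := ⟨diag P.M, isQ_diag P.summand⟩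

/-- composition of partial maps -/
def comp (f : QHom P P') (g : QHom P' P'') : QHom P P'' :=
  ⟨relComp g.graph f.graph, isQ_comp f g⟩

theorem id_comp (f : QHom P P') : comp (id P) f = f := ext' (diag_relComp f.isQ)

theorem comp_id (f : QHom P P') : comp f (id P') = f := ext' (relComp_diag f.isQ)

theorem assoc {P''' : QP R} (f : QHom P P') (g : QHom P' P'') (h : QHom P'' P''') :
    comp (comp f g) h = comp f (comp g h) := ext' (relComp_assoc _ _ _)

end QHom

/-- Quillen's category `Q P(R)` -/
instance category : Category.{u} (QP R) where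
  Hom := QHom
  id := QHom.id
  comp := QHom.comp
  id_comp := QHom.id_comp
  comp_id := QHom.comp_id
  assoc := QHom.assoc

theorem isSummand_top {X : Type v} [AddCommGroup X] [Module R X] :
    IsSummand (⊤ : Submodule R X) := ⟨⊥, isCompl_top_bot⟩

/-- the zero module -/
def zero (R : Type u) [CommRing R] : QP R := ⟨0, ⊤, isSummand_top⟩

section baseChange

variable (f : R →+* S)

theorem bc_isSummand (P : QP R) : IsSummand (bc f P.M) := isSummand_bc f P.summand

/-- base change of an object -/
def bcObj (P : QP R) : QP S := ⟨P.n, bc f P.M, bc_isSummand f P⟩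

theorem bcRel_isQ {P P' : QP R} (φ : QHom P P') : IsQ (bc f P.M) (bc f P'.M) (bcRel f φ.graph) :=
  IsQ.bcRel f P.summand P'.summand φ.isQ

/-- base change of a morphism: the graph of `S ⊗ N → S ⊗ M` -/
def bcHom {P P' : QP R} (φ : QHom P P') : QHom (bcObj f P) (bcObj f P') :=
  ⟨bcRel f φ.graph, bcRel_isQ f φ⟩

theorem bcHom_id (P : QP R) : bcHom f (QHom.id P) = QHom.id (bcObj f P) :=
  QHom.ext' (bcRel_diag f P.M P.summand)

theorem bcHom_comp {P P' P'' : QP R} (φ : QHom P P') (ψ : QHom P' P'') :
    bcHom f (QHom.comp φ ψ) = QHom.comp (bcHom f φ) (bcHom f ψ) :=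
  QHom.ext' (bcRel_relComp f P.summand P'.summand P''.summand ψ.isQ φ.isQ)

/-- the base change functor `Q P(R) ⥤ Q P(S)`, `M ↦ S ⊗ M` -/
def baseChange : QP R ⥤ QP S where
  obj := bcObj f
  map := bcHom f
  map_id := bcHom_id f
  map_comp := bcHom_comp f

theorem bcObj_zero : bcObj f (zero R) = zero S := by
  unfold bcObj zero
  congr 1
  exact Subsingleton.elim _ _

end baseChange

section Pi

variable {X Y : Type u} [TopologicalSpace X] [TopologicalSpace Y]

/-- the image of a generalized loop under a continuous map -/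
def loopMap (N : Type) (g : C(X, Y)) {x : X} {y : Y} (h : g x = y) (p : GenLoop N X x) :
    GenLoop N Y y :=
  ⟨g.comp p.1, fun t ht => (congrArg g (p.2 t ht)).trans h⟩

theorem loopMap_homotopic (N : Type) (g : C(X, Y)) {x : X} {y : Y} (h : g x = y)
    {p q : GenLoop N X x} (hpq : GenLoop.Homotopic p q) :
    GenLoop.Homotopic (loopMap N g h p) (loopMap N g h q) := by
  obtain ⟨H⟩ := hpq
  exact ⟨H.compContinuousMap g⟩

/-- the map on homotopy groups induced by a continuous map, as a map of sets -/
def piMap₀ (N : Type) (g : C(X, Y)) {x : X} {y : Y} (h : g x = y) :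
    HomotopyGroup N X x → HomotopyGroup N Y y :=
  Quotient.map (loopMap N g h) fun _ _ hpq => loopMap_homotopic N g h hpq

theorem piMap₀_one (N : Type) [DecidableEq N] [Nonempty N] (g : C(X, Y)) {x : X} {y : Y}
    (h : g x = y) : piMap₀ N g h 1 = 1 := by
  rw [HomotopyGroup.one_def, HomotopyGroup.one_def]
  refine congrArg (Quotient.mk _) ?_
  exact GenLoop.ext _ _ fun t => h

theorem piMap₀_mul (N : Type) [DecidableEq N] [Nonempty N] (g : C(X, Y)) {x : X} {y : Y}
    (h : g x = y) (a b : HomotopyGroup N X x) :
    piMap₀ N g h (a * b) = piMap₀ N g h a * piMap₀ N g h b := by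
  obtain ⟨p⟩ := a
  obtain ⟨q⟩ := b
  have e1 := HomotopyGroup.mul_spec (i := Classical.arbitrary N) (p := p) (q := q)
  have e2 := HomotopyGroup.mul_spec (i := Classical.arbitrary N) (p := loopMap N g h p)
    (q := loopMap N g h q)
  refine (congrArg (piMap₀ N g h) e1).trans (Eq.trans ?_ e2.symm)
  refine congrArg (Quotient.mk _) ?_
  refine GenLoop.ext _ _ fun t => ?_
  change g (GenLoop.transAt (Classical.arbitrary N) q p t) =
    GenLoop.transAt (Classical.arbitrary N) (loopMap N g h q) (loopMap N g h p) t
  rw [GenLoop.transAt, GenLoop.transAt, GenLoop.coe_copy, GenLoop.coe_copy, apply_ite g]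
  rfl

/-- the homomorphism on homotopy groups induced by a continuous map -/
def piMap (N : Type) [DecidableEq N] [Nonempty N] (g : C(X, Y)) {x : X} {y : Y} (h : g x = y) :
    HomotopyGroup N X x →* HomotopyGroup N Y y where
  toFun := piMap₀ N g h
  map_one' := piMap₀_one N g h
  map_mul' := piMap₀_mul N g h

end Pi

/-- the point of the geometric realization given by a vertex -/
noncomputable def vtx (X : SSet.{u}) (x : X _⦋0⦌) : SSet.toTop.obj X :=
  TopCat.toSSetObj₀Equiv ((sSetTopAdj.unit.app X).app (op ⦋0⦌) x)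

theorem map_vtx {X Y : SSet.{u}} (g : X ⟶ Y) (x : X _⦋0⦌) :
    (SSet.toTop.map g).hom (vtx X x) = vtx Y (g.app (op ⦋0⦌) x) := by
  have h1 := congrArg (fun φ => φ.app (op ⦋0⦌) x) (sSetTopAdj.unit.naturality g)
  have h2 : (TopCat.toSSet.map (SSet.toTop.map g)).app (op ⦋0⦌)
      ((sSetTopAdj.unit.app X).app (op ⦋0⦌) x) =
      (sSetTopAdj.unit.app Y).app (op ⦋0⦌) (g.app (op ⦋0⦌) x) := h1.symm
  exact congrArg TopCat.toSSetObj₀Equiv h2

/-- the classifying space `B Q P(R)` of Quillen's category: the geometric realization of the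
nerve -/
noncomputable def BQ (R : Type u) [CommRing R] : TopCat.{u} := SSet.toTop.obj (nerve (QP R))

/-- the base point of `B Q P(R)`: the zero module -/
noncomputable def BQ.base (R : Type u) [CommRing R] : BQ R :=
  vtx (nerve (QP R)) (ComposableArrows.mk₀ (zero R))

/-- Quillen's algebraic K-group `K_n(R) = π_{n+1}(B Q P(R), 0)` -/
def K (n : ℕ) (R : Type u) [CommRing R] : Type u := HomotopyGroup.Pi (n + 1) (BQ R) (BQ.base R)

noncomputable instance (n : ℕ) (R : Type u) [CommRing R] : Group (K n R) :=
  HomotopyGroup.group (Fin (n + 1)) (X := BQ R) (x := BQ.base R)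

/-- the map `B Q P(R) → B Q P(S)` induced by `M ↦ S ⊗ M` -/
noncomputable def BQ.map (f : R →+* S) : BQ R ⟶ BQ S := SSet.toTop.map (nerveMap (baseChange f))

theorem BQ.map_base (f : R →+* S) : (BQ.map f).hom (BQ.base R) = BQ.base S := by
  refine (map_vtx _ _).trans ?_
  refine congrArg (vtx (nerve (QP S))) ?_
  rw [nerveMap_app_mk₀]
  exact congrArg ComposableArrows.mk₀ (bcObj_zero f)

/-- The homomorphism `K_n(R) → K_n(S)` induced by a ring homomorphism `R → S`. -/
noncomputable def K.map (n : ℕ) (f : R →+* S) : K n R →* K n S :=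
  piMap (Fin (n + 1)) (BQ.map f).hom (BQ.map_base f)

end Vale.Agent.P178.QK
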