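import Vale.Agent.P178.QK.Rel
import Vale.Agent.P178.H847.QBase

/-!
Graphs of the morphisms of `H847.QP`.
-/

namespace Vale.Agent.P178.QK

universe u v

open Vale.Agent.P178.H847 (exists_split)

section

variable {R : Type u} [CommRing R] {X Y Z : Type v} [AddCommGroup X] [Module R X]
  [AddCommGroup Y] [Module R Y] [AddCommGroup Z] [Module R Z]

theorem isSummand_of_retraction {N : Submodule R X} (r : X →ₗ[R] X) (h1 : ∀ x, r x ∈ N)
    (h2 : ∀ x ∈ N, r x = x) : IsSummand N :=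
  ⟨_, LinearMap.isCompl_of_proj (f := LinearMap.codRestrict N r h1)
    fun x => Subtype.ext (h2 x x.2)⟩

theorem IsSummand.exists_retraction {N : Submodule R X} (h : IsSummand N) :
    ∃ r : X →ₗ[R] N, ∀ x : N, r x = x := by
  obtain ⟨C, hC⟩ := h
  exact ⟨N.projectionOnto C hC, fun x => Submodule.projectionOnto_apply_left hC x⟩

theorem isSummand_iff_projective [Module.Projective R X] {N : Submodule R X} :
    IsSummand N ↔ Module.Projective R (X ⧸ N) := by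
  constructor
  · intro h
    obtain ⟨r, hr⟩ := h.exists_retraction
    exact H847.projective_quot_of_retraction N (N.subtype ∘ₗ r) (fun x => (r x).2)
      fun x hx => congrArg Subtype.val (hr ⟨x, hx⟩)
  · intro h
    obtain ⟨-, r, -, -, hr⟩ := exists_split N h
    exact isSummand_of_retraction (N.subtype ∘ₗ r) (fun x => (r x).2)
      fun x hx => congrArg Subtype.val (hr ⟨x, hx⟩)

theorem IsSummand.projective [Module.Projective R X] {N : Submodule R X} (h : IsSummand N) :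
    Module.Projective R N := by
  obtain ⟨r, hr⟩ := h.exists_retraction
  exact Module.Projective.of_split N.subtype r (LinearMap.ext hr)

variable {M : Submodule R X} {M' : Submodule R Y} {M'' : Submodule R Z}

/-- the graph of a morphism -/
def gra (φ : H847.QHom R M M') : Submodule R (Y × X) :=
  LinearMap.range ((M'.subtype ∘ₗ φ.dom.subtype).prod (M.subtype ∘ₗ φ.fn))

theorem mem_gra {φ : H847.QHom R M M'} {z : Y × X} : z ∈ gra φ ↔
    ∃ (h : z.1 ∈ M') (h' : (⟨z.1, h⟩ : M') ∈ φ.dom), (φ.fn ⟨⟨z.1, h⟩, h'⟩ : X) = z.2 := by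
  constructor
  · rintro ⟨x, rfl⟩
    exact ⟨x.1.2, x.2, rfl⟩
  · rintro ⟨h, h', h''⟩
    exact ⟨⟨⟨z.1, h⟩, h'⟩, Prod.ext rfl h''⟩

theorem gra_inj {φ ψ : H847.QHom R M M'} (h : gra φ = gra ψ) : φ = ψ := by
  refine H847.QHom.ext' (fun x => ⟨fun hx => ?_, fun hx => ?_⟩) fun x hx hx' => Subtype.ext ?_
  · have : ((x.1, (φ.fn ⟨x, hx⟩ : X)) : Y × X) ∈ gra φ := mem_gra.2 ⟨x.2, hx, rfl⟩
    rw [h] at this
    obtain ⟨_, h', _⟩ := mem_gra.1 this
    exact h'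
  · have : ((x.1, (ψ.fn ⟨x, hx⟩ : X)) : Y × X) ∈ gra ψ := mem_gra.2 ⟨x.2, hx, rfl⟩
    rw [← h] at this
    obtain ⟨_, h', _⟩ := mem_gra.1 this
    exact h'
  · have : ((x.1, (φ.fn ⟨x, hx⟩ : X)) : Y × X) ∈ gra φ := mem_gra.2 ⟨x.2, hx, rfl⟩
    rw [h] at this
    obtain ⟨_, h', h''⟩ := mem_gra.1 this
    exact h''.symm

theorem isQ_gra (φ : H847.QHom R M M') (hM' : IsSummand M') : IsQ M M' (gra φ) where
  fst_mem z hz := (mem_gra.1 hz).1
  range x := by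
    constructor
    · intro h
      obtain ⟨y, hy⟩ := φ.surj ⟨x, h⟩
      exact ⟨y.1, mem_gra.2 ⟨y.1.2, y.2, congrArg Subtype.val hy⟩⟩
    · rintro ⟨y, hy⟩
      obtain ⟨h, h', h''⟩ := mem_gra.1 hy
      have h3 : (φ.fn ⟨⟨y, h⟩, h'⟩ : X) = x := h''
      rw [← h3]
      exact Subtype.property _
  single x hx := by
    obtain ⟨h, h', h''⟩ := mem_gra.1 hx
    have h3 : (φ.fn ⟨⟨0, h⟩, h'⟩ : X) = x := h''
    have h4 : (⟨⟨0, h⟩, h'⟩ : φ.dom) = 0 := rfl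
    rw [← h3, h4, map_zero]
    rfl
  summand := by
    obtain ⟨-, r, -, -, hr⟩ := exists_split φ.dom φ.proj
    obtain ⟨r', hr'⟩ := hM'.exists_retraction
    refine isSummand_of_retraction (M'.subtype ∘ₗ φ.dom.subtype ∘ₗ r ∘ₗ r') (fun x => ?_) ?_
    · exact ⟨((r (r' x)).1.1, (φ.fn (r (r' x)) : X)),
        mem_gra.2 ⟨(r (r' x)).1.2, (r (r' x)).2, rfl⟩, rfl⟩
    · rintro _ ⟨z, hz, rfl⟩
      obtain ⟨h, h', _⟩ := mem_gra.1 hz
      have e1 : r' z.1 = ⟨z.1, h⟩ := hr' ⟨z.1, h⟩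
      have e2 : r (⟨z.1, h⟩ : M') = ⟨⟨z.1, h⟩, h'⟩ := hr ⟨⟨z.1, h⟩, h'⟩
      change (r (r' z.1)).1.1 = z.1
      rw [e1, e2]

theorem exists_gra [Module.Projective R Y] (hM' : IsSummand M') {Γ : Submodule R (Y × X)}
    (h : IsQ M M' Γ) : ∃ φ : H847.QHom R M M', gra φ = Γ := by
  have hq : Function.Injective ((LinearMap.fst R Y X) ∘ₗ Γ.subtype) := by
    rw [injective_iff_map_eq_zero]
    rintro ⟨⟨a, b⟩, hz⟩ h0
    have h1 : a = 0 := h0
    subst h1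
    have h2 := h.single b hz
    subst h2
    rfl
  let E := LinearEquiv.ofInjective ((LinearMap.fst R Y X) ∘ₗ Γ.subtype) hq
  have hE : ∀ (x : Y) (hx : x ∈ LinearMap.range ((LinearMap.fst R Y X) ∘ₗ Γ.subtype)),
      (E.symm ⟨x, hx⟩).1.1 = x := fun x hx => congrArg Subtype.val (E.apply_symm_apply ⟨x, hx⟩)
  have hE2 : ∀ (x : Y) (hx : x ∈ LinearMap.range ((LinearMap.fst R Y X) ∘ₗ Γ.subtype))
      (y : X), (x, y) ∈ Γ → (E.symm ⟨x, hx⟩).1.2 = y := by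
    intro x hx y hxy
    have h1 : E ⟨(x, y), hxy⟩ = ⟨x, hx⟩ := rfl
    rw [← h1, E.symm_apply_apply]
  let dom : Submodule R M' := (LinearMap.range ((LinearMap.fst R Y X) ∘ₗ Γ.subtype)).comap M'.subtype
  have hmem : ∀ x : dom, (E.symm ⟨x.1.1, x.2⟩).1.2 ∈ M := fun x =>
    (h.range _).2 ⟨_, (E.symm ⟨x.1.1, x.2⟩).2⟩
  let fn : dom →ₗ[R] M :=
    { toFun := fun x => ⟨(E.symm ⟨x.1.1, x.2⟩).1.2, hmem x⟩
      map_add' := fun x y => by
        apply Subtype.ext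
        change (E.symm (⟨x.1.1, x.2⟩ + ⟨y.1.1, y.2⟩)).1.2 = _
        rw [map_add]
        rfl
      map_smul' := fun r x => by
        apply Subtype.ext
        change (E.symm (r • ⟨x.1.1, x.2⟩)).1.2 = _
        rw [map_smul]
        rfl }
  have hsurj : Function.Surjective fn := by
    rintro ⟨x, hx⟩
    obtain ⟨y, hy⟩ := (h.range x).1 hx
    have h1 : y ∈ LinearMap.range ((LinearMap.fst R Y X) ∘ₗ Γ.subtype) := ⟨⟨(y, x), hy⟩, rfl⟩
    exact ⟨⟨⟨y, h.fst_mem _ hy⟩, h1⟩, Subtype.ext (hE2 y h1 x hy)⟩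
  have hproj : Module.Projective R (M' ⧸ dom) := by
    obtain ⟨r, hr⟩ := h.summand.exists_retraction
    have := hM'.projective
    have hr1 : ∀ x : Y, (r x : Y) ∈ M' := fun x => by
      obtain ⟨z, hz, hz'⟩ := (r x).2
      rw [← hz']
      exact h.fst_mem z hz
    refine H847.projective_quot_of_retraction dom
      (LinearMap.codRestrict M' (Submodule.subtype _ ∘ₗ r ∘ₗ M'.subtype) fun x => hr1 _)
      (fun x => ?_) fun x hx => ?_
    · obtain ⟨z, hz, hz'⟩ := (r x.1).2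
      exact ⟨⟨z, hz⟩, hz'⟩
    · obtain ⟨z, hz⟩ := hx
      have h1 : x.1 ∈ Γ.map (LinearMap.fst R Y X) := ⟨z.1, z.2, hz⟩
      refine Subtype.ext ?_
      change (r x.1 : Y) = x.1
      exact congrArg Subtype.val (hr ⟨x.1, h1⟩)
  refine ⟨⟨dom, hproj, fn, hsurj⟩, ?_⟩
  ext ⟨a, b⟩
  rw [mem_gra]
  constructor
  · rintro ⟨h1, h2, h3⟩
    have h4 : (E.symm ⟨a, h2⟩).1.2 = b := h3
    have h5 : (E.symm ⟨a, h2⟩).1 = (a, b) := Prod.ext (hE a h2) h4
    rw [← h5]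
    exact Subtype.property _
  · intro hab
    have h1 : a ∈ LinearMap.range ((LinearMap.fst R Y X) ∘ₗ Γ.subtype) := ⟨⟨(a, b), hab⟩, rfl⟩
    exact ⟨h.fst_mem _ hab, h1, hE2 a h1 b hab⟩

theorem gra_comp (φ : H847.QHom R M M') (ψ : H847.QHom R M' M'') :
    gra (H847.QHom.comp φ ψ) = relComp (gra ψ) (gra φ) := by
  ext z
  rw [mem_gra, mem_relComp]
  constructor
  · rintro ⟨h, ⟨h1, h2⟩, h3⟩
    exact ⟨_, mem_gra.2 ⟨h, h1, rfl⟩, mem_gra.2 ⟨Subtype.property _, h2, h3⟩⟩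
  · rintro ⟨y, h1, h2⟩
    obtain ⟨a1, a2, a3⟩ := mem_gra.1 h1
    obtain ⟨b1, b2, b3⟩ := mem_gra.1 h2
    have a3' : ψ.fn ⟨⟨z.1, a1⟩, a2⟩ = ⟨y, b1⟩ := Subtype.ext a3
    have b2' : ψ.fn ⟨⟨z.1, a1⟩, a2⟩ ∈ φ.dom := by
      rw [a3']
      exact b2
    refine ⟨a1, ⟨a2, b2'⟩, ?_⟩
    change (φ.fn ⟨ψ.fn ⟨⟨z.1, a1⟩, a2⟩, b2'⟩ : X) = z.2
    have e : (⟨ψ.fn ⟨⟨z.1, a1⟩, a2⟩, b2'⟩ : φ.dom) = ⟨⟨y, b1⟩, b2⟩ := Subtype.ext a3'
    rw [e]
    exact b3

theorem gra_id : gra (H847.QHom.id R M) = diag M := by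
  ext z
  rw [mem_gra, mem_diag]
  exact ⟨fun ⟨h, _, h'⟩ => ⟨h, h'⟩, fun ⟨h, h'⟩ => ⟨h, trivial, h'⟩⟩

theorem IsQ.comp [Module.Projective R Y] [Module.Projective R Z] (hM' : IsSummand M')
    (hM'' : IsSummand M'') {A : Submodule R (Z × Y)} {B : Submodule R (Y × X)}
    (hA : IsQ M' M'' A) (hB : IsQ M M' B) : IsQ M M'' (relComp A B) := by
  obtain ⟨ψ, rfl⟩ := exists_gra hM'' hA
  obtain ⟨φ, rfl⟩ := exists_gra hM' hB
  rw [← gra_comp]
  exact isQ_gra _ hM''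

end

section bc

variable {R S : Type u} [CommRing R] [CommRing S] (f : R →+* S) {m n : ℕ}

theorem isSummand_bc {M : Submodule R (Fin n → R)} (h : IsSummand M) : IsSummand (bc f M) :=
  isSummand_iff_projective.2 (H847.projective_bc f M (isSummand_iff_projective.1 h))

theorem gra_bcHom {P P' : H847.QP R} (φ : H847.QHom R P.M P'.M) :
    gra (H847.QP.bcHom f φ) = bcRel f (gra φ) := by
  apply le_antisymm
  · rintro ⟨a, b⟩ hz
    obtain ⟨h, h', h''⟩ := mem_gra.1 hz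
    have h3 : H847.bcMap f (H847.amb φ) a = b := h''
    have h4 : a ∈ H847.bc f (H847.domAmb φ) := h'
    have h5 : H847.bc f (H847.domAmb φ) ≤
        (bcRel f (gra φ)).comap (LinearMap.prod LinearMap.id (H847.bcMap f (H847.amb φ))) := by
      rw [H847.bc, Submodule.span_le]
      rintro _ ⟨v, hv, rfl⟩
      change (H847.fv f v, H847.bcMap f (H847.amb φ) (H847.fv f v)) ∈ bcRel f (gra φ)
      rw [H847.bcMap_fv]
      obtain ⟨g1, g2⟩ := H847.mem_domAmb.1 hv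
      refine Submodule.subset_span ⟨(v, H847.amb φ v), mem_gra.2 ⟨g1, g2, ?_⟩, rfl⟩
      exact (H847.amb_apply φ g1 g2).symm
    have h6 := h5 h4
    have h7 : (a, H847.bcMap f (H847.amb φ) a) ∈ bcRel f (gra φ) := h6
    rw [h3] at h7
    exact h7
  · refine Submodule.span_le.2 ?_
    rintro _ ⟨z, hz, rfl⟩
    obtain ⟨h, h', h''⟩ := mem_gra.1 hz
    have g1 : H847.fv f z.1 ∈ H847.bc f P'.M := H847.fv_mem_bc f h
    have g2 : H847.fv f z.1 ∈ H847.bc f (H847.domAmb φ) :=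
      H847.fv_mem_bc f (H847.mem_domAmb.2 ⟨h, h'⟩)
    refine mem_gra.2 ⟨g1, g2, ?_⟩
    have := H847.QP.bcHom_fn_fv f φ ⟨z.1, h⟩ h' g2
    rw [h''] at this
    exact this

theorem IsQ.bcRel {M : Submodule R (Fin n → R)} {M' : Submodule R (Fin m → R)}
    (hM : IsSummand M) (hM' : IsSummand M') {Γ : Submodule R ((Fin m → R) × (Fin n → R))}
    (h : IsQ M M' Γ) : IsQ (bc f M) (bc f M') (QK.bcRel f Γ) := by
  let P : H847.QP R := ⟨n, M, isSummand_iff_projective.1 hM⟩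
  let P' : H847.QP R := ⟨m, M', isSummand_iff_projective.1 hM'⟩
  obtain ⟨φ, rfl⟩ := exists_gra hM' h
  have := gra_bcHom f (P := P) (P' := P') φ
  rw [← this]
  exact isQ_gra (H847.QP.bcHom f (P := P) (P' := P') φ) (isSummand_bc f hM')

theorem bcRel_diag (M : Submodule R (Fin n → R)) (hM : IsSummand M) :
    QK.bcRel f (diag M) = diag (bc f M) := by
  let P : H847.QP R := ⟨n, M, isSummand_iff_projective.1 hM⟩
  have h := gra_bcHom f (P := P) (P' := P) (H847.QHom.id R M)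
  rw [gra_id] at h
  rw [← h, H847.QP.bcHom_id f P]
  exact gra_id

theorem bcRel_relComp {l : ℕ} {M : Submodule R (Fin n → R)} {M' : Submodule R (Fin m → R)}
    {M'' : Submodule R (Fin l → R)} (hM : IsSummand M) (hM' : IsSummand M') (hM'' : IsSummand M'')
    {A : Submodule R ((Fin l → R) × (Fin m → R))} {B : Submodule R ((Fin m → R) × (Fin n → R))}
    (hA : IsQ M' M'' A) (hB : IsQ M M' B) :
    QK.bcRel f (relComp A B) = relComp (QK.bcRel f A) (QK.bcRel f B) := by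
  let P : H847.QP R := ⟨n, M, isSummand_iff_projective.1 hM⟩
  let P' : H847.QP R := ⟨m, M', isSummand_iff_projective.1 hM'⟩
  let P'' : H847.QP R := ⟨l, M'', isSummand_iff_projective.1 hM''⟩
  obtain ⟨ψ, rfl⟩ := exists_gra hM'' hA
  obtain ⟨φ, rfl⟩ := exists_gra hM' hB
  rw [← gra_comp, ← gra_bcHom f (P := P) (P' := P'') (H847.QHom.comp φ ψ),
    H847.QP.bcHom_comp f (P := P) (P' := P') (P'' := P'') φ ψ, gra_comp,
    gra_bcHom f (P := P') (P' := P'') ψ, gra_bcHom f (P := P) (P' := P') φ]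
  rfl

end bc

end Vale.Agent.P178.QK
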