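import Mathlib

/-!
Direct summands, composition of relations, graphs of surjections of direct summands.
-/

namespace Vale.Agent.P178.QK

universe u v

section

variable {R : Type u} [CommRing R] {X Y Z : Type v} [AddCommGroup X] [Module R X]
  [AddCommGroup Y] [Module R Y] [AddCommGroup Z] [Module R Z]

/-- `M` is a direct summand of `X` -/
def IsSummand (M : Submodule R X) : Prop := ∃ C : Submodule R X, IsCompl M C

/-- `Γ ⊆ Y × X` is the graph of a surjective homomorphism `N → M`, where `M ⊆ X` and `N ⊆ N' ⊆ Y`,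
and `N` is a direct summand of `Y`. (The homomorphism sends the first component to the second.) -/
structure IsQ (M : Submodule R X) (N' : Submodule R Y) (Γ : Submodule R (Y × X)) : Prop where
  fst_mem : ∀ z ∈ Γ, z.1 ∈ N'
  range : ∀ x, x ∈ M ↔ ∃ y, (y, x) ∈ Γ
  single : ∀ x, (0, x) ∈ Γ → x = 0
  summand : IsSummand (Γ.map (LinearMap.fst R Y X))

/-- the composite of the relations `A ⊆ Z × Y` and `B ⊆ Y × X` -/
def relComp (A : Submodule R (Z × Y)) (B : Submodule R (Y × X)) : Submodule R (Z × X) where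
  carrier := {z | ∃ y, (z.1, y) ∈ A ∧ (y, z.2) ∈ B}
  add_mem' := by
    rintro a b ⟨y, h1, h2⟩ ⟨y', h1', h2'⟩
    exact ⟨y + y', A.add_mem h1 h1', B.add_mem h2 h2'⟩
  zero_mem' := ⟨0, A.zero_mem, B.zero_mem⟩
  smul_mem' := by
    rintro r a ⟨y, h1, h2⟩
    exact ⟨r • y, A.smul_mem r h1, B.smul_mem r h2⟩

theorem mem_relComp {A : Submodule R (Z × Y)} {B : Submodule R (Y × X)} {z : Z × X} :
    z ∈ relComp A B ↔ ∃ y, (z.1, y) ∈ A ∧ (y, z.2) ∈ B := Iff.rfl

/-- the graph of the identity of `M` -/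
def diag (M : Submodule R X) : Submodule R (X × X) := M.map (LinearMap.prod LinearMap.id LinearMap.id)

theorem mem_diag {M : Submodule R X} {z : X × X} : z ∈ diag M ↔ z.1 ∈ M ∧ z.1 = z.2 := by
  constructor
  · rintro ⟨x, hx, rfl⟩
    exact ⟨hx, rfl⟩
  · rintro ⟨h, h'⟩
    exact ⟨z.1, h, Prod.ext rfl h'⟩

theorem isQ_diag {M : Submodule R X} (hM : IsSummand M) : IsQ M M (diag M) where
  fst_mem z hz := (mem_diag.1 hz).1
  range x := ⟨fun h => ⟨x, mem_diag.2 ⟨h, rfl⟩⟩, fun ⟨y, h⟩ => by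
    obtain ⟨h1, h2⟩ := mem_diag.1 h
    have h3 : y = x := h2
    rw [← h3]
    exact h1⟩
  single x h := (mem_diag.1 h).2.symm
  summand := by
    have : (diag M).map (LinearMap.fst R X X) = M := by
      ext x
      constructor
      · rintro ⟨z, hz, rfl⟩
        exact (mem_diag.1 hz).1
      · intro h
        exact ⟨(x, x), mem_diag.2 ⟨h, rfl⟩, rfl⟩
    rw [this]
    exact hM

theorem diag_relComp {M : Submodule R X} {N' : Submodule R Y} {Γ : Submodule R (Y × X)}
    (h : IsQ M N' Γ) : relComp Γ (diag M) = Γ := by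
  ext z
  constructor
  · rintro ⟨y, h1, h2⟩
    obtain ⟨-, h3⟩ := mem_diag.1 h2
    have h4 : y = z.2 := h3
    rw [h4] at h1
    exact h1
  · intro hz
    exact ⟨z.2, hz, mem_diag.2 ⟨(h.range _).2 ⟨_, hz⟩, rfl⟩⟩

theorem relComp_diag {M : Submodule R X} {N' : Submodule R Y} {Γ : Submodule R (Y × X)}
    (h : IsQ M N' Γ) : relComp (diag N') Γ = Γ := by
  ext z
  constructor
  · rintro ⟨y, h1, h2⟩
    obtain ⟨-, h3⟩ := mem_diag.1 h1
    have h4 : z.1 = y := h3
    rw [← h4] at h2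
    exact h2
  · intro hz
    exact ⟨z.1, mem_diag.2 ⟨h.fst_mem _ hz, rfl⟩, hz⟩

theorem relComp_assoc {W : Type v} [AddCommGroup W] [Module R W] (A : Submodule R (W × Z))
    (B : Submodule R (Z × Y)) (C : Submodule R (Y × X)) :
    relComp A (relComp B C) = relComp (relComp A B) C := by
  ext z
  constructor
  · rintro ⟨a, h1, b, h2, h3⟩
    exact ⟨b, ⟨a, h1, h2⟩, h3⟩
  · rintro ⟨b, ⟨a, h1, h2⟩, h3⟩
    exact ⟨a, h1, b, h2, h3⟩

end

section bc

variable {R S : Type u} [CommRing R] [CommRing S] (f : R →+* S) {m n : ℕ}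

/-- the `S`-submodule of `S ^ n` generated by the image of `M ⊆ R ^ n` -/
def bc (M : Submodule R (Fin n → R)) : Submodule S (Fin n → S) :=
  Submodule.span S ((fun v i => f (v i)) '' (M : Set (Fin n → R)))

/-- the `S`-submodule of `S ^ m × S ^ n` generated by the image of `Γ ⊆ R ^ m × R ^ n` -/
def bcRel (Γ : Submodule R ((Fin m → R) × (Fin n → R))) :
    Submodule S ((Fin m → S) × (Fin n → S)) :=
  Submodule.span S ((fun z => (fun i => f (z.1 i), fun i => f (z.2 i))) ''
    (Γ : Set ((Fin m → R) × (Fin n → R))))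

end bc

end Vale.Agent.P178.QK
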